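import Mathlib

namespace Vale.Agent.Lib.P329

/-- a monoid is aperiodic if every element `x` satisfies `x ^ (n + 1) = x ^ n` for some `n` -/
def Aperiodic (M : Type) [Monoid M] : Prop := ∀ x : M, ∃ n : ℕ, x ^ (n + 1) = x ^ n

/-- carrier of the local divisor `cM ∩ Mc` -/
def LocDiv (M : Type) [Monoid M] (c : M) : Type :=
  {x : M // (∃ y, x = c * y) ∧ ∃ z, x = z * c}

namespace LocDiv

variable {M : Type} [Monoid M] {c : M}

/-- the product `(z c) ∘ y = z y` of the local divisor -/
noncomputable def mul' (x y : LocDiv M c) : LocDiv M c :=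
  ⟨Classical.choose x.2.2 * y.1, by
    obtain ⟨v, hv⟩ := y.2.1
    obtain ⟨u, hu⟩ := y.2.2
    have hz := Classical.choose_spec x.2.2
    obtain ⟨y0, hy0⟩ := x.2.1
    refine ⟨⟨y0 * v, ?_⟩, ⟨Classical.choose x.2.2 * u, ?_⟩⟩
    · calc Classical.choose x.2.2 * y.1 = (Classical.choose x.2.2 * c) * v := by
            rw [hv, mul_assoc]
        _ = x.1 * v := by rw [← hz]
        _ = c * (y0 * v) := by rw [hy0, mul_assoc]
    · calc Classical.choose x.2.2 * y.1 = Classical.choose x.2.2 * (u * c) := by rw [← hu]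
        _ = Classical.choose x.2.2 * u * c := by rw [mul_assoc]⟩

lemma mul'_val_right (x y : LocDiv M c) {v : M} (hv : y.1 = c * v) : (mul' x y).1 = x.1 * v := by
  have hz := Classical.choose_spec x.2.2
  calc Classical.choose x.2.2 * y.1 = (Classical.choose x.2.2 * c) * v := by rw [hv, mul_assoc]
    _ = x.1 * v := by rw [← hz]

lemma mul'_val_left (x y : LocDiv M c) {z : M} (hz : x.1 = z * c) : (mul' x y).1 = z * y.1 := by
  obtain ⟨v, hv⟩ := y.2.1
  rw [mul'_val_right x y hv, hz, hv, mul_assoc]

/-- the identity `c` of the local divisor -/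
def one' : LocDiv M c := ⟨c, ⟨1, (mul_one c).symm⟩, ⟨1, (one_mul c).symm⟩⟩

noncomputable instance : Monoid (LocDiv M c) where
  mul := mul'
  one := one'
  mul_assoc x y z := by
    apply Subtype.ext
    obtain ⟨u, hu⟩ := x.2.2
    obtain ⟨u2, hu2⟩ := y.2.2
    have h1 : (mul' x y).1 = (u * u2) * c := by
      rw [mul'_val_left x y hu, hu2, mul_assoc]
    show (mul' (mul' x y) z).1 = (mul' x (mul' y z)).1
    rw [mul'_val_left _ z h1, mul'_val_left x _ hu, mul'_val_left y z hu2, mul_assoc]
  one_mul x := by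
    apply Subtype.ext
    show (mul' one' x).1 = x.1
    rw [mul'_val_left one' x (z := 1) (one_mul c).symm, one_mul]
  mul_one x := by
    apply Subtype.ext
    show (mul' x one').1 = x.1
    rw [mul'_val_right x one' (v := 1) (mul_one c).symm, mul_one]

lemma mul_val_right (x y : LocDiv M c) {v : M} (hv : y.1 = c * v) : (x * y).1 = x.1 * v :=
  mul'_val_right x y hv

lemma mul_val_left (x y : LocDiv M c) {z : M} (hz : x.1 = z * c) : (x * y).1 = z * y.1 :=
  mul'_val_left x y hz

lemma one_val : (1 : LocDiv M c).1 = c := rfl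

/-- the element `c t c` of the local divisor -/
def emb (t : M) : LocDiv M c :=
  ⟨c * t * c, ⟨t * c, by rw [mul_assoc]⟩, ⟨c * t, rfl⟩⟩

lemma emb_val (t : M) : (emb t : LocDiv M c).1 = c * t * c := rfl

/-- the value of a product of elements `c t c` in the local divisor -/
lemma prod_emb (l : List M) :
    ((l.map emb).prod : LocDiv M c).1 = c * (l.map fun t => t * c).prod := by
  induction l with
  | nil => simp [one_val]
  | cons t l ih =>
    rw [List.map_cons, List.prod_cons, List.map_cons, List.prod_cons,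
      mul_val_left _ _ (z := c * t) (emb_val t), ih]
    simp only [mul_assoc]

instance [Finite M] : Finite (LocDiv M c) := by
  unfold LocDiv
  infer_instance

lemma pow_val (x : LocDiv M c) {v : M} (hv : x.1 = c * v) (n : ℕ) : (x ^ n).1 = c * v ^ n := by
  induction n with
  | zero => simp [one_val]
  | succ n ih => rw [pow_succ, mul_val_right _ x hv, ih, pow_succ, mul_assoc]

lemma aperiodic (h : Aperiodic M) : Aperiodic (LocDiv M c) := by
  intro x
  obtain ⟨v, hv⟩ := x.2.1
  obtain ⟨n, hn⟩ := h v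
  exact ⟨n, Subtype.ext (by rw [pow_val x hv, pow_val x hv, hn])⟩

lemma one_not_mem (h : Aperiodic M) (hc : c ≠ 1) (x : LocDiv M c) : x.1 ≠ 1 := by
  intro hx
  obtain ⟨y, hy⟩ := x.2.1
  rw [hx] at hy
  obtain ⟨n, hn⟩ := h c
  have key : ∀ k : ℕ, c ^ k * y ^ k = 1 := by
    intro k
    induction k with
    | zero => simp
    | succ k ih =>
      calc c ^ (k + 1) * y ^ (k + 1) = c ^ k * (c * y) * y ^ k := by
            rw [pow_succ, pow_succ']; simp only [mul_assoc]
        _ = 1 := by rw [← hy, mul_one, ih]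
  apply hc
  calc c = c * (c ^ n * y ^ n) := by rw [key, mul_one]
    _ = c ^ (n + 1) * y ^ n := by rw [pow_succ', mul_assoc]
    _ = 1 := by rw [hn, key]

lemma card_lt [Finite M] (h : Aperiodic M) (hc : c ≠ 1) :
    Nat.card (LocDiv M c) < Nat.card M := by
  classical
  have := Fintype.ofFinite M
  have := Fintype.ofFinite (LocDiv M c)
  rw [Nat.card_eq_fintype_card, Nat.card_eq_fintype_card]
  refine Fintype.card_lt_of_injective_of_notMem (fun x : LocDiv M c => x.1)
    Subtype.val_injective (b := 1) ?_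
  rintro ⟨x, hx⟩
  exact one_not_mem h hc x hx

end LocDiv

end Vale.Agent.Lib.P329
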