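import Vale.Agent.Lib.P329.Closure
import Vale.Agent.Lib.P329.Schutz.LocalDivisor

namespace Vale.Agent.Lib.P329

open Computability

variable {α M : Type} [DecidableEq α] [Monoid M] (φ : α → M) (c : α)

/-- the list of the values of the `c`-free blocks of a word, each block being closed by an
occurrence of `c`; `acc` is the value of the part of the current block that was already read;
the trailing unfinished block is dropped -/
def sig (acc : M) : List α → List M
  | [] => []
  | a :: w => if a = c then acc :: sig 1 w else sig (acc * φ a) w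

/-- the value of the trailing unfinished block -/
def tl (acc : M) : List α → M
  | [] => acc
  | a :: w => if a = c then tl 1 w else tl (acc * φ a) w

/-- closed words: empty or ending with `c` -/
def Closed (w : List α) : Prop := w = [] ∨ ∃ u, w = u ++ [c]

/-- value of a word in terms of its blocks -/
lemma prod_eq_sig (acc : M) (w : List α) :
    acc * (w.map φ).prod = ((sig φ c acc w).map fun t => t * φ c).prod * tl φ c acc w := by
  induction w generalizing acc with
  | nil => simp [sig, tl]
  | cons a w ih =>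
    by_cases h : a = c
    · subst h
      have h1 := ih 1
      rw [one_mul] at h1
      simp only [sig, tl, if_true, List.map_cons, List.prod_cons]
      rw [h1]
      simp only [mul_assoc]
    · simp only [sig, tl, if_neg h, List.map_cons, List.prod_cons]
      rw [← ih (acc * φ a), mul_assoc]

/-- value of `c w` through the local divisor at `φ c` -/
lemma prod_eq_locDiv (w : List α) :
    φ c * (w.map φ).prod =
      (((sig φ c 1 w).map LocDiv.emb).prod : LocDiv M (φ c)).1 * tl φ c 1 w := by
  have h1 := prod_eq_sig φ c 1 w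
  rw [one_mul] at h1
  rw [LocDiv.prod_emb, h1, mul_assoc]

/-- a `c`-free initial block followed by `c` gives one block -/
lemma sig_block (acc : M) {u : List α} (hu : c ∉ u) (v : List α) :
    sig φ c acc (u ++ c :: v) = (acc * (u.map φ).prod) :: sig φ c 1 v := by
  induction u generalizing acc with
  | nil => simp [sig]
  | cons a u ih =>
    have ha : a ≠ c := fun h => hu (by simp [h])
    have hu' : c ∉ u := fun h => hu (by simp [h])
    simp only [List.cons_append, sig, if_neg ha, List.map_cons, List.prod_cons]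
    rw [ih (acc * φ a) hu', mul_assoc]

lemma tl_block (acc : M) (u v : List α) :
    tl φ c acc (u ++ c :: v) = tl φ c 1 v := by
  induction u generalizing acc with
  | nil => simp [tl]
  | cons a u ih =>
    by_cases ha : a = c
    · simp only [List.cons_append, tl, if_pos ha]
      exact ih 1
    · simp only [List.cons_append, tl, if_neg ha]
      exact ih _

lemma sig_of_notMem (acc : M) {v : List α} (hv : c ∉ v) : sig φ c acc v = [] := by
  induction v generalizing acc with
  | nil => rfl
  | cons a v ih =>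
    have ha : a ≠ c := fun h => hv (by simp [h])
    have hv' : c ∉ v := fun h => hv (by simp [h])
    simp only [sig, if_neg ha]
    exact ih _ hv'

lemma tl_of_notMem (acc : M) {v : List α} (hv : c ∉ v) :
    tl φ c acc v = acc * (v.map φ).prod := by
  induction v generalizing acc with
  | nil => simp [tl]
  | cons a v ih =>
    have ha : a ≠ c := fun h => hv (by simp [h])
    have hv' : c ∉ v := fun h => hv (by simp [h])
    simp only [tl, if_neg ha, List.map_cons, List.prod_cons]
    rw [ih _ hv', mul_assoc]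

/-- the block map is additive after an occurrence of `c` -/
lemma sig_append_c (acc : M) (u v : List α) :
    sig φ c acc (u ++ c :: v) = sig φ c acc (u ++ [c]) ++ sig φ c 1 v := by
  induction u generalizing acc with
  | nil => simp [sig]
  | cons a u ih =>
    by_cases ha : a = c
    · simp only [List.cons_append, sig, if_pos ha]
      rw [ih 1]
    · simp only [List.cons_append, sig, if_neg ha]
      exact ih _

lemma sig_append_of_closed {v₁ : List α} (h1 : Closed c v₁) (v₂ : List α) :
    sig φ c 1 (v₁ ++ v₂) = sig φ c 1 v₁ ++ sig φ c 1 v₂ := by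
  rcases h1 with rfl | ⟨u, rfl⟩
  · simp [sig]
  · rw [List.append_assoc, List.singleton_append, sig_append_c]

lemma tl_append_of_closed {v₁ : List α} (h1 : Closed c v₁) (v₂ : List α) :
    tl φ c 1 (v₁ ++ v₂) = tl φ c 1 v₂ := by
  rcases h1 with rfl | ⟨u, rfl⟩
  · simp
  · rw [List.append_assoc, List.singleton_append, tl_block]

/-- conversely -/
lemma sig_tl_of_split {v₁ v₂ : List α} (h1 : Closed c v₁) (h2 : c ∉ v₂) :
    sig φ c 1 (v₁ ++ v₂) = sig φ c 1 v₁ ∧ tl φ c 1 (v₁ ++ v₂) = (v₂.map φ).prod := by
  rw [sig_append_of_closed φ c h1, tl_append_of_closed φ c h1, sig_of_notMem φ c 1 h2,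
    tl_of_notMem φ c 1 h2]
  simp

lemma exists_split (w : List α) : ∃ v₁ v₂, w = v₁ ++ v₂ ∧ Closed c v₁ ∧ c ∉ v₂ := by
  induction w using List.reverseRecOn with
  | nil => exact ⟨[], [], rfl, Or.inl rfl, by simp⟩
  | append_singleton w a ih =>
    by_cases ha : a = c
    · subst ha
      exact ⟨w ++ [a], [], by simp, Or.inr ⟨w, rfl⟩, by simp⟩
    · obtain ⟨v₁, v₂, rfl, h1, h2⟩ := ih
      refine ⟨v₁, v₂ ++ [a], by simp, h1, ?_⟩
      intro h
      rcases List.mem_append.mp h with h | h
      · exact h2 h
      · exact ha (List.mem_singleton.mp h).symm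

/-- every word splits as a closed word followed by a `c`-free word -/
lemma exists_closed_split (w : List α) :
    ∃ v₁ v₂, w = v₁ ++ v₂ ∧ Closed c v₁ ∧ c ∉ v₂ ∧ sig φ c 1 w = sig φ c 1 v₁ ∧
      tl φ c 1 w = (v₂.map φ).prod := by
  obtain ⟨v₁, v₂, rfl, h1, h2⟩ := exists_split c w
  exact ⟨v₁, v₂, rfl, h1, h2, (sig_tl_of_split φ c h1 h2).1, (sig_tl_of_split φ c h1 h2).2⟩

omit [DecidableEq α] in
lemma closed_append_c_iff (u v : List α) : Closed c (u ++ c :: v) ↔ Closed c v := by
  constructor
  · rintro (h | ⟨x, hx⟩)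
    · simp at h
    · rcases List.eq_nil_or_concat v with rfl | ⟨y, b, rfl⟩
      · exact Or.inl rfl
      · right
        have h1 : (u ++ c :: y) ++ [b] = x ++ [c] := by
          rw [← hx]; simp
        have h2 := List.append_inj' h1 rfl
        have h3 : b = c := by simpa using h2.2
        exact ⟨y, by rw [h3]; simp⟩
  · rintro (rfl | ⟨y, rfl⟩)
    · exact Or.inr ⟨u, rfl⟩
    · exact Or.inr ⟨u ++ c :: y, by simp⟩

omit [DecidableEq α] in
lemma Closed.append {v₁ v₂ : List α} (h1 : Closed c v₁) (h2 : Closed c v₂) :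
    Closed c (v₁ ++ v₂) := by
  rcases h2 with rfl | ⟨y, rfl⟩
  · simpa using h1
  · exact Or.inr ⟨v₁ ++ y, by simp⟩

/-- every splitting of the list of blocks comes from a splitting of the word -/
lemma exists_split_of_sig (l₁ l₂ : List M) (v : List α) (hv : Closed c v)
    (h : sig φ c 1 v = l₁ ++ l₂) :
    ∃ v₁ v₂, v = v₁ ++ v₂ ∧ Closed c v₁ ∧ Closed c v₂ ∧ sig φ c 1 v₁ = l₁ ∧
      sig φ c 1 v₂ = l₂ := by
  induction l₁ generalizing v with
  | nil => exact ⟨[], v, rfl, Or.inl rfl, hv, rfl, by simpa using h⟩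
  | cons t l₁ ih =>
    have hc : c ∈ v := by
      by_contra hc
      rw [sig_of_notMem φ c 1 hc] at h
      simp at h
    obtain ⟨u, v', rfl, hu⟩ := List.eq_append_cons_of_mem hc
    rw [sig_block φ c 1 hu] at h
    have hv' : Closed c v' := (closed_append_c_iff c u v').mp hv
    simp only [List.cons_append, List.cons.injEq] at h
    obtain ⟨v₁, v₂, rfl, h1, h2, h3, h4⟩ := ih v' hv' h.2
    refine ⟨u ++ c :: v₁, v₂, by simp, (closed_append_c_iff c u v₁).mpr h1, h2, ?_, h4⟩
    rw [sig_block φ c 1 hu, h3, h.1]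

omit [DecidableEq α] in
lemma hasHeight_closed [Finite α] : HasHeight 0 (langOf fun v : List α => Closed c v) := by
  have h : HasHeight 0 ((1 : Language α) + (⊤ : Language α) * ({[c]} : Language α)) :=
    HasHeight.one.add (HasHeight.top.mul (HasHeight.letter c))
  refine h.of_iff fun w => ?_
  constructor
  · rintro (rfl | ⟨u, rfl⟩)
    · exact Or.inl rfl
    · exact Or.inr (Language.mem_mul.mpr ⟨u, trivial, [c], rfl, rfl⟩)
  · rintro (h | h)
    · exact Or.inl h
    · obtain ⟨u, -, x, hx, rfl⟩ := Language.mem_mul.mp h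
      have hx' : x = [c] := hx
      exact Or.inr ⟨u, by rw [hx']⟩

/-- Inverse image of a star-free language over the alphabet `M` under the block map `sig`:
star-free over `α`, provided that the `c`-free words of each given value form a star-free
language. -/
lemma hasHeight_sig [Finite α] [Finite M]
    (hP : ∀ t : M, HasHeight 0 (langOf fun u : List α => c ∉ u ∧ (u.map φ).prod = t))
    {K : Language M} (hK : HasHeight 0 K) :
    HasHeight 0 (langOf fun v : List α => Closed c v ∧ sig φ c 1 v ∈ K) := by
  obtain ⟨E, hE, rfl⟩ := hK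
  induction E with
  | zero =>
    exact HasHeight.zero.of_iff fun w => ⟨fun h => h.2.elim, fun h => h.elim⟩
  | one =>
    refine HasHeight.one.of_iff fun w => ?_
    constructor
    · rintro ⟨h1, h2⟩
      have h2' : sig φ c 1 w = [] := h2
      rcases h1 with rfl | ⟨u, rfl⟩
      · rfl
      · exfalso
        obtain ⟨u', v', h3, hu⟩ := List.eq_append_cons_of_mem (a := c) (xs := u ++ [c]) (by simp)
        rw [h3, sig_block φ c 1 hu] at h2'
        simp at h2'
    · intro h
      have h' : w = [] := h
      subst h'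
      exact ⟨Or.inl rfl, rfl⟩
  | letter t =>
    refine ((hP t).mul (HasHeight.letter c)).of_iff fun w => ?_
    constructor
    · rintro ⟨h1, h2⟩
      have h2' : sig φ c 1 w = [t] := h2
      have hc : c ∈ w := by
        by_contra hc
        rw [sig_of_notMem φ c 1 hc] at h2'
        simp at h2'
      obtain ⟨u, v', rfl, hu⟩ := List.eq_append_cons_of_mem hc
      rw [sig_block φ c 1 hu] at h2'
      simp only [one_mul, List.cons.injEq] at h2'
      have hv' : Closed c v' := (closed_append_c_iff c u v').mp h1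
      have hnil : v' = [] := by
        rcases hv' with rfl | ⟨y, rfl⟩
        · rfl
        · exfalso
          obtain ⟨u', v'', h3, hu'⟩ :=
            List.eq_append_cons_of_mem (a := c) (xs := y ++ [c]) (by simp)
          rw [h3, sig_block φ c 1 hu'] at h2'
          simp at h2'
      subst hnil
      exact Language.mem_mul.mpr ⟨u, ⟨hu, h2'.1⟩, [c], rfl, rfl⟩
    · intro h
      obtain ⟨u, ⟨hu, hut⟩, x, hx, rfl⟩ := Language.mem_mul.mp h
      have hx' : x = [c] := hx
      subst hx'
      refine ⟨Or.inr ⟨u, rfl⟩, ?_⟩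
      show sig φ c 1 (u ++ [c]) = [t]
      rw [sig_block φ c 1 hu, hut]
      simp [sig]
  | plus P Q ihP ihQ =>
    have hP' : P.sh ≤ 0 := le_trans (le_max_left _ _) hE
    have hQ' : Q.sh ≤ 0 := le_trans (le_max_right _ _) hE
    refine ((ihP hP').add (ihQ hQ')).of_iff fun w => ?_
    constructor
    · rintro ⟨h1, h2 | h2⟩
      · exact Or.inl ⟨h1, h2⟩
      · exact Or.inr ⟨h1, h2⟩
    · rintro (⟨h1, h2⟩ | ⟨h1, h2⟩)
      · exact ⟨h1, Or.inl h2⟩
      · exact ⟨h1, Or.inr h2⟩
  | comp P Q ihP ihQ =>
    have hP' : P.sh ≤ 0 := le_trans (le_max_left _ _) hE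
    have hQ' : Q.sh ≤ 0 := le_trans (le_max_right _ _) hE
    refine ((ihP hP').mul (ihQ hQ')).of_iff fun w => ?_
    constructor
    · rintro ⟨h1, h2⟩
      obtain ⟨l₁, hl₁, l₂, hl₂, h3⟩ := Language.mem_mul.mp h2
      obtain ⟨v₁, v₂, rfl, g1, g2, g3, g4⟩ := exists_split_of_sig φ c l₁ l₂ w h1 h3.symm
      exact Language.mem_mul.mpr ⟨v₁, ⟨g1, by rw [g3]; exact hl₁⟩, v₂,
        ⟨g2, by rw [g4]; exact hl₂⟩, rfl⟩
    · intro h
      obtain ⟨v₁, ⟨g1, g3⟩, v₂, ⟨g2, g4⟩, rfl⟩ := Language.mem_mul.mp h
      refine ⟨g1.append c g2, ?_⟩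
      rw [sig_append_of_closed φ c g1]
      exact Language.mem_mul.mpr ⟨_, g3, _, g4, rfl⟩
  | neg P ihP =>
    have hP' : P.sh ≤ 0 := hE
    refine ((hasHeight_closed c).inf (ihP hP').compl).of_iff fun w => ?_
    constructor
    · rintro ⟨h1, h2⟩
      exact ⟨h1, fun h => h2 h.2⟩
    · rintro ⟨h1, h2⟩
      exact ⟨h1, fun h => h2 ⟨h1, h⟩⟩
  | star P _ =>
    exact absurd hE (by simp [GRE.sh])

end Vale.Agent.Lib.P329
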