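import Vale.Agent.Lib.P329.Schutz.Embed
import Vale.Agent.Lib.P329.Schutz.Sigma

namespace Vale.Agent.Lib.P329

open Computability

/-- the words over the letters different from `c`, seen as words over all letters -/
lemma exists_map_val_iff {α : Type} (c : α) (w : List α) :
    c ∉ w ↔ ∃ u : List {a : α // a ≠ c}, w = u.map Subtype.val := by
  constructor
  · intro h
    induction w with
    | nil => exact ⟨[], rfl⟩
    | cons a w ih =>
      have ha : a ≠ c := fun e => h (by simp [e])
      obtain ⟨u, hu⟩ := ih fun hc => h (List.mem_cons_of_mem _ hc)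
      exact ⟨⟨a, ha⟩ :: u, by simp [hu]⟩
  · rintro ⟨u, rfl⟩ hc
    obtain ⟨a, -, ha⟩ := List.mem_map.1 hc
    exact a.2 ha

/-- the induction: on the number of elements of the monoid, then on the number of letters -/
theorem starFree_aux (N : ℕ) : ∀ (K : ℕ) (M : Type) [Monoid M] [Finite M] (α : Type) [Finite α],
    Nat.card M = N → Nat.card α = K → Aperiodic M → ∀ (φ : α → M) (m : M),
      HasHeight 0 (langOf fun w : List α => (w.map φ).prod = m) := by
  induction N using Nat.strong_induction_on with
  | _ N ihN =>
    intro K
    induction K using Nat.strong_induction_on with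
    | _ K ihK =>
      intro M _ _ α _ hMN hαK hM φ m
      by_cases hall : ∀ a, φ a = 1
      · have hval : ∀ w : List α, (w.map φ).prod = 1 := by
          intro w
          induction w with
          | nil => simp
          | cons a w ih => simp [hall a, ih]
        have h1 := HasHeight.of_prop (n := 0) ((1 : M) = m) (HasHeight.top (α := α))
        refine h1.of_iff fun w => ?_
        simp only [mem_langOf, hval]
        exact ⟨fun h => ⟨h, trivial⟩, fun h => h.1⟩
      · push Not at hall
        obtain ⟨c, hc⟩ := hall
        classical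
        -- the words without `c`
        have hP : ∀ t : M,
            HasHeight 0 (langOf fun u : List α => c ∉ u ∧ (u.map φ).prod = t) := by
          intro t
          have hlt : Nat.card {a : α // a ≠ c} < K := by
            have := Fintype.ofFinite α
            rw [← hαK, Nat.card_eq_fintype_card, Nat.card_eq_fintype_card]
            exact Fintype.card_subtype_lt (x := c) (by simp)
          have h1 := ihK _ hlt M {a : α // a ≠ c} hMN rfl hM (fun a => φ a.1) t
          have h2 := HasHeight.map_inj (Subtype.val : {a : α // a ≠ c} → α)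
            Subtype.val_injective h1
          refine h2.of_iff fun w => ?_
          simp only [mem_langOf]
          constructor
          · rintro ⟨h3, h4⟩
            obtain ⟨u, rfl⟩ := (exists_map_val_iff c w).1 h3
            refine ⟨u, ?_, rfl⟩
            rw [List.map_map] at h4
            exact h4
          · rintro ⟨u, hu, rfl⟩
            refine ⟨(exists_map_val_iff c _).2 ⟨u, rfl⟩, ?_⟩
            rw [List.map_map]
            exact hu
        -- the local divisor
        have hK : ∀ x : LocDiv M (φ c), HasHeight 0
            (langOf fun l : List M => (l.map LocDiv.emb).prod = x) := fun x =>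
          ihN (Nat.card (LocDiv M (φ c))) (by rw [← hMN]; exact LocDiv.card_lt hM hc)
            (Nat.card M) (LocDiv M (φ c)) M rfl rfl (LocDiv.aperiodic hM) LocDiv.emb x
        have hS : ∀ x : LocDiv M (φ c), HasHeight 0 (langOf fun v : List α =>
            Closed c v ∧ sig φ c 1 v ∈ langOf fun l : List M => (l.map LocDiv.emb).prod = x) :=
          fun x => hasHeight_sig φ c hP (hK x)
        -- the decomposition
        have hU := HasHeight.iUnion_of (n := 0) (α := α) (ι := M × LocDiv M (φ c) × M)
          (fun i => i.1 * i.2.1.1 * i.2.2 = m)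
          (fun i => (((langOf fun u : List α => c ∉ u ∧ (u.map φ).prod = i.1) * {[c]}) *
            (langOf fun v : List α => Closed c v ∧
              sig φ c 1 v ∈ langOf fun l : List M => (l.map LocDiv.emb).prod = i.2.1)) *
            (langOf fun u : List α => c ∉ u ∧ (u.map φ).prod = i.2.2))
          (fun i _ => (((hP i.1).mul (HasHeight.letter c)).mul (hS i.2.1)).mul (hP i.2.2))
        refine ((hP m).add hU).of_iff fun w => ?_
        rw [Language.mem_add]
        simp only [mem_langOf]
        constructor
        · intro hw
          by_cases hcw : c ∈ w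
          · right
            obtain ⟨u, r, rfl, hu⟩ := List.eq_append_cons_of_mem hcw
            obtain ⟨v₁, v₂, rfl, hv1, hv2, hsig, htl⟩ := exists_closed_split φ c r
            refine ⟨((u.map φ).prod, ((sig φ c 1 v₁).map LocDiv.emb).prod, (v₂.map φ).prod),
              ?_, ?_⟩
            · simp only
              rw [← hw, List.map_append, List.prod_append, List.map_cons, List.prod_cons,
                prod_eq_locDiv φ c (v₁ ++ v₂), hsig, htl, mul_assoc]
            · refine Language.mem_mul.2 ⟨u ++ [c] ++ v₁, Language.mem_mul.2 ⟨u ++ [c],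
                Language.mem_mul.2 ⟨u, ⟨hu, rfl⟩, [c], rfl, rfl⟩, v₁, ⟨hv1, rfl⟩, rfl⟩,
                v₂, ⟨hv2, rfl⟩, by simp⟩
          · exact Or.inl ⟨hcw, hw⟩
        · rintro (h | ⟨⟨m₁, x, m₃⟩, hm, hmem⟩)
          · exact h.2
          · obtain ⟨w₁, hw₁, v₂, ⟨hv2, hv2'⟩, rfl⟩ := Language.mem_mul.1 hmem
            obtain ⟨w₂, hw₂, v₁, ⟨hv1, hv1'⟩, rfl⟩ := Language.mem_mul.1 hw₁
            obtain ⟨u, ⟨hu, hu'⟩, w₃, hw₃, rfl⟩ := Language.mem_mul.1 hw₂
            have hw3 : w₃ = [c] := hw₃
            subst hw3
            obtain ⟨hsig, htl⟩ := sig_tl_of_split φ c hv1 hv2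
            have hx : ((sig φ c 1 v₁).map LocDiv.emb).prod = x := hv1'
            simp only at hm hu' hv2'
            have e : u ++ [c] ++ v₁ ++ v₂ = u ++ c :: (v₁ ++ v₂) := by simp
            rw [e, List.map_append, List.prod_append, List.map_cons, List.prod_cons,
              prod_eq_locDiv φ c (v₁ ++ v₂), hsig, htl, hx, hu', hv2', ← hm, mul_assoc]

/-- Schutzenberger: the languages recognized by a finite aperiodic monoid are star-free. -/
theorem starFree_of_aperiodic {α M : Type} [Finite α] [Monoid M] [Finite M] (hM : Aperiodic M)
    (φ : α → M) (m : M) : HasHeight 0 (langOf fun w : List α => (w.map φ).prod = m) :=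
  starFree_aux _ _ M α rfl rfl hM φ m

/-- The same when only the image of the morphism is assumed aperiodic. -/
theorem starFree_of_aperiodic_image {α M : Type} [Finite α] [Monoid M] [Finite M] (φ : α → M)
    (hM : ∀ w : List α, ∃ n : ℕ, (w.map φ).prod ^ (n + 1) = (w.map φ).prod ^ n) (m : M) :
    HasHeight 0 (langOf fun w : List α => (w.map φ).prod = m) := by
  set S : Submonoid M := Submonoid.closure (Set.range φ) with hS
  have hword : ∀ x ∈ S, ∃ w : List α, (w.map φ).prod = x := by
    intro x hx
    obtain ⟨l, hl, rfl⟩ := Submonoid.exists_list_of_mem_closure hx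
    clear hx
    induction l with
    | nil => exact ⟨[], rfl⟩
    | cons y l ih =>
      obtain ⟨a, rfl⟩ := hl y (by simp)
      obtain ⟨w, hw⟩ := ih fun z hz => hl z (List.mem_cons_of_mem _ hz)
      exact ⟨a :: w, by simp [hw]⟩
  have hap : Aperiodic S := by
    intro x
    obtain ⟨w, hw⟩ := hword x.1 x.2
    obtain ⟨n, hn⟩ := hM w
    refine ⟨n, Subtype.ext ?_⟩
    rw [SubmonoidClass.coe_pow, SubmonoidClass.coe_pow, ← hw]
    exact hn
  set ψ : α → S := fun a => ⟨φ a, Submonoid.subset_closure ⟨a, rfl⟩⟩ with hψ
  have hval : ∀ w : List α, (((w.map ψ).prod : S) : M) = (w.map φ).prod := by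
    intro w
    induction w with
    | nil => simp
    | cons a w ih =>
      rw [List.map_cons, List.prod_cons, Submonoid.coe_mul, ih, List.map_cons, List.prod_cons]
  by_cases hm : m ∈ S
  · refine (starFree_of_aperiodic hap ψ ⟨m, hm⟩).of_iff fun w => ?_
    simp only [mem_langOf]
    rw [← hval w]
    exact ⟨fun h => Subtype.ext h, fun h => by rw [h]⟩
  · refine HasHeight.zero.of_iff fun w => ?_
    simp only [mem_langOf]
    constructor
    · intro h
      exact absurd (by rw [← h, ← hval w]; exact ((w.map ψ).prod : S).2) hm
    · intro h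
      exact h.elim

end Vale.Agent.Lib.P329
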