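import Vale.Agent.Lib.P329.Closure

namespace Vale.Agent.Lib.P329

open Computability

variable {α β : Type}

lemma mem_map_iff (ι : β → α) (L : Language β) (w : List α) :
    w ∈ Language.map ι L ↔ ∃ u ∈ L, w = u.map ι := by
  constructor
  · rintro ⟨u, hu, rfl⟩
    exact ⟨u, hu, rfl⟩
  · rintro ⟨u, hu, rfl⟩
    exact ⟨u, hu, rfl⟩

/-- a word all of whose letters are in the range of `ι` is the image of a word -/
lemma exists_map_eq_of_forall_range (ι : β → α) (w : List α) (h : ∀ x ∈ w, ∃ b, ι b = x) :
    ∃ u : List β, w = u.map ι := by
  induction w with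
  | nil => exact ⟨[], rfl⟩
  | cons a w ih =>
    obtain ⟨b, rfl⟩ := h a (by simp)
    obtain ⟨u, rfl⟩ := ih fun x hx => h x (by simp [hx])
    exact ⟨b :: u, rfl⟩

lemma GRE.hasHeight_map [Finite α] (ι : β → α) (hι : Function.Injective ι) (E : GRE β) :
    HasHeight E.sh (Language.map ι E.lang) := by
  induction E with
  | zero =>
    have : Language.map ι (GRE.zero : GRE β).lang = 0 := map_zero _
    rw [this]; exact HasHeight.zero
  | one =>
    have : Language.map ι (GRE.one : GRE β).lang = 1 := map_one _
    rw [this]; exact HasHeight.one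
  | letter b =>
    refine (HasHeight.letter (ι b)).of_iff fun w => ?_
    rw [mem_map_iff]
    constructor
    · rintro ⟨u, hu, rfl⟩
      have : u = [b] := hu
      subst this
      rfl
    · intro hw
      have : w = [ι b] := hw
      subst this
      exact ⟨[b], rfl, rfl⟩
  | plus P Q ihP ihQ =>
    have : Language.map ι (GRE.plus P Q).lang = Language.map ι P.lang + Language.map ι Q.lang :=
      map_add _ _ _
    rw [this]
    exact (ihP.mono (le_max_left _ _)).add (ihQ.mono (le_max_right _ _))
  | comp P Q ihP ihQ =>
    have : Language.map ι (GRE.comp P Q).lang = Language.map ι P.lang * Language.map ι Q.lang :=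
      map_mul _ _ _
    rw [this]
    exact (ihP.mono (le_max_left _ _)).mul (ihQ.mono (le_max_right _ _))
  | neg P ih =>
    have h1 : HasHeight P.sh ((langOf fun w : List α => ∀ x ∈ w, ∃ b, ι b = x) ⊓
        (Language.map ι P.lang)ᶜ) := (HasHeight.classStar _).inf ih.compl
    refine h1.of_iff fun w => ?_
    rw [mem_map_iff]
    constructor
    · rintro ⟨u, hu, rfl⟩
      refine ⟨?_, ?_⟩
      · intro x hx
        obtain ⟨b, -, rfl⟩ := List.mem_map.mp hx
        exact ⟨b, rfl⟩
      · intro hmem
        obtain ⟨v, hv, hvu⟩ := (mem_map_iff _ _ _).mp hmem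
        have : u = v := hι.list_map hvu
        subst this
        exact hu hv
    · rintro ⟨h2, h3⟩
      obtain ⟨u, rfl⟩ := exists_map_eq_of_forall_range ι w h2
      refine ⟨u, ?_, rfl⟩
      intro hu
      exact h3 ((mem_map_iff _ _ _).mpr ⟨u, hu, rfl⟩)
  | star P ih =>
    have : Language.map ι (GRE.star P).lang = (Language.map ι P.lang)∗ :=
      Language.map_kstar _ _
    rw [this]
    exact ih.kstar

/-- Transfer of an expression along an injective renaming of the letters: the image language has
the same height bound (the complement is taken inside the words over the image letters, which form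
a star-free language). -/
lemma HasHeight.map_inj [Finite α] {n : ℕ} (ι : β → α) (hι : Function.Injective ι)
    {L : Language β} (h : HasHeight n L) :
    HasHeight n (langOf fun w : List α => ∃ u ∈ L, w = u.map ι) := by
  obtain ⟨E, hE, rfl⟩ := h
  exact ((GRE.hasHeight_map ι hι E).mono hE).of_iff fun w => (mem_map_iff _ _ _).symm

end Vale.Agent.Lib.P329
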